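import Vale.Agent.P207.N5.H709.T2h
import Vale.Agent.P207.N5.H547.AffLemB
import Vale.Agent.P207.H761.T3
import Vale.Agent.P207.H761.Inter

/-!
# P207, line N5, row T3-GLUE, part A: elementary facts over `Pic`
-/

set_option maxSynthPendingDepth 3
set_option linter.unusedSectionVars false

open Set Filter Topology Metric MeasureTheory
open scoped ContDiff

noncomputable section

namespace Vale.Agent.P207.N4.V.H761

open Vale.Agent.P207.N3

variable [Dim]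

variable {Γ X B : Type} [Group Γ] [MetricSpace X] [ProperSpace X] [MulAction Γ X]
  [IsIsometricSMul Γ X] [TopologicalSpace B] [CompactSpace B] [T2Space B] [MulAction Γ B]
  [ContinuousConstSMul Γ B]

/-- the frame at the point `η` of the leaf of `x` -/
def tr (L : Leaf Γ X B) (x : X) (η : B) : X := L.flip (L.hol η (L.flip x))

theorem ep_φ (L : Leaf Γ X B) (t : ℝ) (x : X) : L.ep (L.φ t x) = L.ep x := by
  rw [L.ep_flip, L.flip_φ, L.em_φ, ← L.ep_flip]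

theorem ep_flip' (L : Leaf Γ X B) (x : X) : L.ep (L.flip x) = L.em x := by
  rw [L.ep_flip, L.flip_flip]

theorem em_tr (L : Leaf Γ X B) (x : X) {η : B} (h : η ≠ L.em x) : L.em (tr L x η) = L.em x := by
  have h1 : η ≠ L.ep (L.flip x) := by rw [ep_flip']; exact h
  rw [tr, ← L.ep_flip, L.hol_ep _ _ h1, ep_flip']

theorem ep_tr (L : Leaf Γ X B) (x : X) {η : B} (h : η ≠ L.em x) : L.ep (tr L x η) = η := by
  have h1 : η ≠ L.ep (L.flip x) := by rw [ep_flip']; exact h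
  rw [tr, ep_flip', L.hol_em _ _ h1]

variable {L : Leaf Γ X B} [MeasurableSpace B] [BorelSpace B] {V : Type}
  [NormedAddCommGroup V] [NormedSpace ℝ V] [FiniteDimensional ℝ V] (P : Pic L V)

/-- the distance of the leaves decays in the future (832) -/
def AngF : Prop := ∃ C : ℝ, ∀ x ξ, 0 < P.Bu.nu x ξ 0 → ∀ s : ℝ, 0 ≤ s →
  0 < P.Bu.nu (L.φ s x) ξ 0 ∧
    ‖P.gr (L.φ s x) ξ 0‖ ≤ C * Real.exp (-(P.Ra.a * s)) * ‖P.gr x ξ 0‖

/-- change of the base point on the leaf -/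
def BaseCh (ε₀ : ℝ) : Prop := ∃ C : ℝ, ∀ x ξ, P.Nr ε₀ x ξ → ∀ q ∈ ball (0 : E2) 1,
  0 < P.Bu.nu (tr L x (P.Af.pt x q)) ξ 0 ∧
    ‖P.gr (tr L x (P.Af.pt x q)) ξ 0‖ ≤ C * ‖P.gr x ξ 0‖

/-- the crossings are close to the points of the leaf -/
def HqC (ε₀ : ℝ) : Prop := ∃ C : ℝ, ∀ x ξ, P.Nr ε₀ x ξ → ∀ q ∈ ball (0 : E2) 1,
  ‖P.Hq x ξ q - q‖ ≤ C * ‖P.gr x ξ 0‖

variable {P}

theorem ne_ep {x : X} {ξ : B} (h : 0 < P.Bu.nu x ξ 0) : ξ ≠ L.ep x := by
  rintro rfl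
  have h0 : (0 : E2) ∈ ball (0 : E2) 3 := mem_ball_self (by norm_num)
  have h1 : P.Bu.en x (L.em x) 0 = L.ep x := by rw [P.Bu.en_em x 0 h0, L.e_zero]
  have h2 := P.Bu.nu_en x (L.em x) 0 h0
  rw [h1] at h2
  have h3 := P.Bu.nu_em x
  linarith

theorem Th_ne (x : X) (ξ : B) {q : E2} (hq : q ∈ closedBall (0 : E2) 2) : P.Th x ξ q ≠ ξ := by
  obtain ⟨z, hz1, hz2, -⟩ := P.Bu.exists_fr x ξ (P.dsc x q)
    (P.Af.dsc_mem (P.Af.closedBall_dT x hq))
  intro h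
  have h' : P.Bu.en x ξ (P.dsc x q) = ξ := h
  exact L.em_ne_ep z (by rw [hz1, hz2, h'])

/-- the point of the leaf `ξ`, in the affine chart of the frame `hol ξ x` -/
theorem pt_Aq {x : X} {ξ : B} (h : ξ ≠ L.ep x) {q : E2} (hq : q ∈ closedBall (0 : E2) 2) :
    P.Af.pt (L.hol ξ x) (P.Aq x ξ q) = P.Th x ξ q := by
  rw [Pic.Aq, P.Af.pt_ch]
  rw [L.hol_em _ _ h]
  exact Th_ne x ξ hq

theorem ch_flow (F : Aff L) (t : ℝ) (x : X) {η : B} (hη : η ≠ L.em x) :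
    F.ch (L.φ t x) η = F.P t x (F.ch x η) := by
  have h := F.flow t x (F.ch x η)
  rw [F.pt_ch x η hη] at h
  rw [← F.ch_pt (L.φ t x) (F.P t x (F.ch x η)), h]

theorem ch_leaf (F : Aff L) {x y : X} (h : L.em x = L.em y) {η : B} (hη : η ≠ L.em x) :
    F.ch y η = F.lin x y (F.ch x η - F.ch x (L.ep y)) := by
  have h1 := F.leaf x y h (F.ch x η)
  rw [F.pt_ch x η hη] at h1
  rw [← F.ch_pt y (F.lin x y (F.ch x η - F.ch x (L.ep y))), h1]

theorem hh_flow {x : X} {ξ : B} (h : ξ ≠ L.ep x) (t : ℝ) {q : E2} (hq : P.Af.pt x q ≠ ξ) :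
    P.hh (L.φ t x) ξ (P.Af.P t x q) = P.Af.P t (L.hol ξ x) (P.hh x ξ q) := by
  rw [Pic.hh, P.Af.flow, L.hol_φ t ξ x h, ch_flow P.Af t _ (by rw [L.hol_em _ _ h]; exact hq)]
  rfl

theorem norm_symm_le (hR : P.RateP) {τ : ℝ} (hτ : 0 ≤ τ) (x : X) (q : E2) :
    ‖(P.Af.P τ x).symm q‖ ≤ Real.exp (-(P.Ra.a * τ)) * ‖q‖ := by
  have h := (hR τ hτ x ((P.Af.P τ x).symm q)).1
  rw [ContinuousLinearEquiv.apply_symm_apply] at h
  have h2 : 0 < Real.exp (P.Ra.a * τ) := Real.exp_pos _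
  rw [Real.exp_neg, ← div_eq_inv_mul, le_div_iff₀ h2, mul_comm]
  exact h

/-- continuity of the variation of the charts in the frame -/
theorem Aq_cont (ξ : B) {q : E2} (hq : q ∈ closedBall (0 : E2) 2) :
    ContinuousOn (fun x => P.Aq x ξ q) {x | ξ ≠ L.ep x} := by
  have h1 : ContinuousOn (fun x : X => L.hol ξ x) {x | ξ ≠ L.ep x} :=
    L.hol_cont.comp (f := fun x : X => (ξ, x))
      (continuous_const.prodMk continuous_id).continuousOn fun x hx => hx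
  have h2 : Continuous (fun x : X => P.Af.dsc x q) := by
    rw [← continuousOn_univ]
    exact P.Af.dsc_jc.continuousOn.comp (f := fun x : X => (x, q))
      (continuous_id.prodMk continuous_const).continuousOn fun x _ => P.Af.closedBall_dT x hq
  have h3 : Continuous (fun x : X => P.Th x ξ q) := by
    rw [← continuousOn_univ]
    exact P.Bu.en_cont.comp (f := fun x : X => ((x, ξ), P.Af.dsc x q))
      ((continuous_id.prodMk continuous_const).prodMk h2).continuousOn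
      fun x _ => ⟨mem_univ _, P.Af.dsc_mem (P.Af.closedBall_dT x hq)⟩
  refine P.Af.ch_cont.comp (f := fun x : X => (L.hol ξ x, P.Th x ξ q))
    (h1.prodMk h3.continuousOn) fun x hx => ?_
  change P.Th x ξ q ≠ L.em (L.hol ξ x)
  rw [L.hol_em _ _ hx]
  exact Th_ne x ξ hq

theorem gr0_cont : Continuous fun p : X × B => P.gr p.1 p.2 0 := by
  rw [← continuousOn_univ]
  exact P.gr_jc.continuousOn.comp (f := fun p : X × B => (p, (0 : E2)))
    (continuous_id.prodMk continuous_const).continuousOn fun p _ => P.Af.zero_dT p.1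

theorem nu0_cont : Continuous fun p : X × B => P.Bu.nu p.1 p.2 0 := H709.nu0_cont P.Bu

theorem gr_em (x : X) : P.gr x (L.em x) 0 = 0 := by
  have h1 : P.dl x (L.em x) = fun _ => (0 : ℝ) := by
    funext q
    exact sub_self _
  rw [Pic.gr, h1, gradient_fun_const]

theorem nr_near {ε : ℝ} (hε : 0 < ε) (z : X) :
    ∀ᶠ p : X × B in 𝓝 (z, L.em z), P.Nr ε p.1 p.2 := by
  have h1 : ∀ᶠ p : X × B in 𝓝 (z, L.em z), 0 < P.Bu.nu p.1 p.2 0 :=
    (nu0_cont (P := P)).continuousAt.eventually (lt_mem_nhds (P.Bu.nu_em z))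
  have h2 : ∀ᶠ p : X × B in 𝓝 (z, L.em z), ‖P.gr p.1 p.2 0‖ < ε := by
    refine (gr0_cont (P := P)).norm.continuousAt.eventually (gt_mem_nhds ?_)
    change ‖P.gr z (L.em z) 0‖ < ε
    rw [gr_em, norm_zero]
    exact hε
  filter_upwards [h1, h2] with p hp1 hp2 using ⟨hp1, hp2.le⟩

theorem nr_smul {ε : ℝ} (g : Γ) {x : X} {ξ : B} : P.Nr ε (g • x) (g • ξ) ↔ P.Nr ε x ξ := by
  rw [Pic.Nr, Pic.Nr, P.Bu.nu_smul _ _ _ _ (mem_ball_self (by norm_num)),
    P.gr_smul _ (P.Af.zero_dT _)]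

theorem exp_lim (C : ℝ) {c : ℝ} (hc : 0 < c) :
    Tendsto (fun n : ℕ => C * Real.exp (-c * n)) atTop (𝓝 0) := by
  have h1 : Tendsto (fun n : ℕ => -c * (n : ℝ)) atTop atBot :=
    (tendsto_natCast_atTop_atTop).const_mul_atTop_of_neg (neg_lt_zero.2 hc)
  have h2 := (Real.tendsto_exp_atBot.comp h1).const_mul C
  rw [mul_zero] at h2
  exact h2

theorem asym (L : Leaf Γ X B) {x : X} {ξ : B} (h : ξ ≠ L.ep x) :
    ∃ C : ℝ, ∀ n : ℕ, dist (L.φ n x) (L.φ n (L.hol ξ x)) ≤ C * Real.exp (-L.χ * n) := by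
  obtain ⟨C, hC⟩ := L.hol_asym {(ξ, x)} isCompact_singleton (by
    intro p hp; rw [mem_singleton_iff] at hp; rw [hp]; exact h)
  exact ⟨C, fun n => hC (ξ, x) rfl n (Nat.cast_nonneg n)⟩

/-- two sequences of frames at distance `→ 0` -/
theorem sub_lim (L : Leaf Γ X B) {u v : ℕ → X} (h : Tendsto (fun n => dist (u n) (v n)) atTop (𝓝 0)) :
    ∃ (z : X) (g : ℕ → Γ) (s : ℕ → ℕ), Tendsto (fun n => g n • u (s n)) atTop (𝓝 z) ∧
      Tendsto (fun n => g n • v (s n)) atTop (𝓝 z) := by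
  obtain ⟨K, hK, hK'⟩ := L.cocompact
  choose g hg using fun n : ℕ => hK' (v n)
  obtain ⟨z, hz, s, hs, hsz⟩ := hK.tendsto_subseq hg
  refine ⟨z, fun n => g (s n), s, ?_, hsz⟩
  have hsz' : Tendsto (fun n => g (s n) • v (s n)) atTop (𝓝 z) := hsz
  rw [tendsto_iff_dist_tendsto_zero] at hsz' ⊢
  have h2 : Tendsto (fun n => dist (u (s n)) (v (s n)) + dist (g (s n) • v (s n)) z)
      atTop (𝓝 (0 + 0)) := (h.comp hs.tendsto_atTop).add hsz'
  rw [add_zero] at h2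
  refine squeeze_zero (fun _ => dist_nonneg) (fun n => ?_) h2
  refine (dist_triangle _ (g (s n) • v (s n)) _).trans ?_
  rw [dist_smul]

/-- **every leaf is close in the future** -/
theorem exists_nr {ε : ℝ} (hε : 0 < ε) {x : X} {ξ : B} (h : ξ ≠ L.ep x) :
    ∃ n : ℕ, P.Nr ε (L.φ n x) ξ := by
  obtain ⟨C, hC⟩ := asym L h
  have hemy : L.em (L.hol ξ x) = ξ := L.hol_em _ _ h
  obtain ⟨z, g, s, h1, h2⟩ := sub_lim L (u := fun n : ℕ => L.φ n x)
    (v := fun n : ℕ => L.φ n (L.hol ξ x))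
    (squeeze_zero (fun _ => dist_nonneg) hC (exp_lim C L.χ_pos))
  have h3 : Tendsto (fun n => g n • ξ) atTop (𝓝 (L.em z)) := by
    have h4 := (L.em_cont.tendsto z).comp h2
    refine h4.congr fun n => ?_
    simp only [Function.comp_apply]
    rw [L.em_smul, L.em_φ, hemy]
  have h5 : Tendsto (fun n => ((g n • L.φ (s n) x, g n • ξ) : X × B)) atTop (𝓝 (z, L.em z)) :=
    h1.prodMk_nhds h3
  obtain ⟨n, hn⟩ := (h5.eventually (nr_near (P := P) hε z)).exists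
  exact ⟨s n, (nr_smul (g n)).1 hn⟩

end Vale.Agent.P207.N4.V.H761
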