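import Vale.Agent.P207.N5.H761.T3A
import Vale.Agent.P207.H761.InterB

/-!
# P207, line N5, row T3-GLUE, part B: the estimates at the centre
-/

set_option maxSynthPendingDepth 3
set_option linter.unusedSectionVars false

open Set Filter Topology Metric MeasureTheory
open scoped ContDiff

noncomputable section

namespace Vale.Agent.P207.N4.V.H761

open Vale.Agent.P207.N3
open Vale.Agent.P207.H761 (inter' invertible_of_close norm_le_of_close taylor2)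

variable [Dim]

variable {Γ X B : Type} [Group Γ] [MetricSpace X] [ProperSpace X] [MulAction Γ X]
  [IsIsometricSMul Γ X] [TopologicalSpace B] [CompactSpace B] [T2Space B] [MulAction Γ B]
  [ContinuousConstSMul Γ B] {L : Leaf Γ X B} [MeasurableSpace B] [BorelSpace B] {V : Type}
  [NormedAddCommGroup V] [NormedSpace ℝ V] [FiniteDimensional ℝ V]

/-- the uniform data of the pairs at distance at most `ρ` -/
structure Bas (P : Pic L V) (ρ C : ℝ) : Prop where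
  ρ_pos : 0 < ρ
  ρ_le : ρ ≤ 1
  C_ge : 1 ≤ C
  sm : ∀ x ξ, P.Nr ρ x ξ → ContDiffOn ℝ ∞ (P.Aq x ξ) (ball 0 1)
  near : ∀ x ξ, P.Nr ρ x ξ → ∀ q ∈ ball (0 : E2) 1,
    ‖fderiv ℝ (P.Aq x ξ) q - ContinuousLinearMap.id ℝ E2‖ ≤ 1 / 2
  bk : ∀ k : ℕ, 2 ≤ k → ∃ M, ∀ x ξ, P.Nr ρ x ξ → ∀ q ∈ ball (0 : E2) 1,
    ‖iteratedFDeriv ℝ k (P.Aq x ξ) q‖ ≤ M
  b2 : ∀ x ξ, P.Nr ρ x ξ → ∀ q ∈ ball (0 : E2) 1, ‖iteratedFDeriv ℝ 2 (P.Aq x ξ) q‖ ≤ C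
  z : ∀ x ξ, P.Nr ρ x ξ → ‖P.Aq x ξ 0‖ ≤ C * ‖P.gr x ξ 0‖
  hq : ∀ x ξ, P.Nr ρ x ξ → ∀ q ∈ ball (0 : E2) 1, P.Hq x ξ q ∈ ball (0 : E2) 2 ∧
    P.Th x ξ (P.Hq x ξ q) = P.Af.pt x q ∧ P.hh x ξ q = P.Aq x ξ (P.Hq x ξ q) ∧
    ‖P.Hq x ξ q - q‖ ≤ C * ‖P.gr x ξ 0‖ ∧ ‖P.Hq x ξ q - q‖ ≤ 1 / 4
  ang : ∀ x ξ, 0 < P.Bu.nu x ξ 0 → ∀ s : ℝ, 0 ≤ s → 0 < P.Bu.nu (L.φ s x) ξ 0 ∧
    ‖P.gr (L.φ s x) ξ 0‖ ≤ C * Real.exp (-(P.Ra.a * s)) * ‖P.gr x ξ 0‖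
  rate : P.RateP

variable {P : Pic L V} {ρ C : ℝ}

theorem nr_mono {ε ε' : ℝ} (h : ε ≤ ε') {x : X} {ξ : B} (hx : P.Nr ε x ξ) : P.Nr ε' x ξ :=
  ⟨hx.1, hx.2.trans h⟩

theorem exists_bas {ε₀ : ℝ} (h0 : 0 < ε₀) (hR : P.RateP) (hA : AngF P) (h2a : P.T2a ε₀)
    (h2h : P.T2h ε₀) (hH : HqC P ε₀) : ∃ ρ C, ρ ≤ ε₀ ∧ Bas P ρ C := by
  obtain ⟨C1, hC1⟩ := hA
  obtain ⟨C2, hC2⟩ := h2h
  obtain ⟨C3, hC3⟩ := hH
  obtain ⟨a1, a2, a3, C4, hC4⟩ := h2a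
  have hab : (0 + 1) * P.Ra.b < 2 * P.Ra.a := by
    have h1 := P.Ra.pinch
    have h2 := P.Ra.a_pos
    linarith
  have hbk : ∀ k : ℕ, 2 ≤ k → ∃ M, ∀ x ξ, P.Nr ε₀ x ξ → ∀ q ∈ ball (0 : E2) 1,
      ‖iteratedFDeriv ℝ k (P.Aq x ξ) q‖ ≤ M := by
    intro k hk
    obtain ⟨M, hM⟩ := a1 0 hab k hk
    refine ⟨M, fun x ξ h q hq => ?_⟩
    have := hM x ξ h q hq
    rwa [Real.rpow_zero, mul_one] at this
  obtain ⟨C5, hC5⟩ := hbk 2 le_rfl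
  obtain ⟨ρ1, hρ1, hn⟩ := a2 (1 / 2) (by norm_num)
  obtain ⟨C, hCd⟩ : ∃ C : ℝ, C = max 1 (max C1 (max C3 (max C4 C5))) := ⟨_, rfl⟩
  have e1 : 1 ≤ C := by rw [hCd]; exact le_max_left _ _
  have e2 : C1 ≤ C := by rw [hCd]; exact (le_max_left _ _).trans (le_max_right _ _)
  have e3 : C3 ≤ C := by
    rw [hCd]; exact ((le_max_left _ _).trans (le_max_right _ _)).trans (le_max_right _ _)
  have e4 : C4 ≤ C := by
    rw [hCd]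
    exact (((le_max_left _ _).trans (le_max_right _ _)).trans (le_max_right _ _)).trans
      (le_max_right _ _)
  have e5 : C5 ≤ C := by
    rw [hCd]
    exact (((le_max_right _ _).trans (le_max_right _ _)).trans (le_max_right _ _)).trans
      (le_max_right _ _)
  have hCpos : 0 < C := by linarith
  obtain ⟨ρ, hρd⟩ : ∃ ρ : ℝ, ρ = min (min ε₀ 1) (min ρ1 (1 / (4 * C))) := ⟨_, rfl⟩
  have r0 : 0 < ρ := by rw [hρd]; exact lt_min (lt_min h0 one_pos) (lt_min hρ1 (by positivity))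
  have r1 : ρ ≤ ε₀ := by rw [hρd]; exact (min_le_left _ _).trans (min_le_left _ _)
  have r2 : ρ ≤ 1 := by rw [hρd]; exact (min_le_left _ _).trans (min_le_right _ _)
  have r3 : ρ ≤ ρ1 := by rw [hρd]; exact (min_le_right _ _).trans (min_le_left _ _)
  have r4 : ρ ≤ 1 / (4 * C) := by rw [hρd]; exact (min_le_right _ _).trans (min_le_right _ _)
  have r5 : C * ρ ≤ 1 / 4 := by
    rw [le_div_iff₀ (by positivity)] at r4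
    linarith
  refine ⟨ρ, C, r1, ⟨r0, r2, e1, fun x ξ h => a3 x ξ (nr_mono r1 h),
    fun x ξ h => hn x ξ (nr_mono r3 h), fun k hk => ?_, fun x ξ h q hq =>
    (hC5 x ξ (nr_mono r1 h) q hq).trans e5, fun x ξ h => (hC4 x ξ (nr_mono r1 h)).trans
    (mul_le_mul_of_nonneg_right e4 (norm_nonneg _)), fun x ξ h q hq => ?_, fun x ξ h s hs => ?_,
    hR⟩⟩
  · obtain ⟨M, hM⟩ := hbk k hk
    exact ⟨M, fun x ξ h => hM x ξ (nr_mono r1 h)⟩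
  · obtain ⟨f1, f2, f3, -⟩ := hC2 x ξ (nr_mono r1 h) q hq
    have f4 : ‖P.Hq x ξ q - q‖ ≤ C * ‖P.gr x ξ 0‖ := (hC3 x ξ (nr_mono r1 h) q hq).trans
      (mul_le_mul_of_nonneg_right e3 (norm_nonneg _))
    exact ⟨f1, f2, f3, f4, f4.trans ((mul_le_mul_of_nonneg_left h.2 hCpos.le).trans r5)⟩
  · obtain ⟨g1, g2⟩ := hC1 x ξ h s hs
    refine ⟨g1, g2.trans ?_⟩
    exact mul_le_mul_of_nonneg_right (mul_le_mul_of_nonneg_right e2 (Real.exp_pos _).le)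
      (norm_nonneg _)

namespace Bas

variable (S : Bas P ρ C)
include S

theorem C_pos : 0 < C := by linarith [S.C_ge]

theorem lip {x : X} {ξ : B} (h : P.Nr ρ x ξ) {w w' : E2} (hw : w ∈ ball (0 : E2) 1)
    (hw' : w' ∈ ball (0 : E2) 1) : ‖P.Aq x ξ w' - P.Aq x ξ w‖ ≤ 2 * ‖w' - w‖ := by
  refine (convex_ball (0 : E2) 1).norm_image_sub_le_of_norm_fderiv_le
    (fun z hz => ((S.sm x ξ h).contDiffAt (isOpen_ball.mem_nhds hz)).differentiableAt (by simp))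
    (fun z hz => ?_) hw hw'
  exact ContinuousLinearMap.opNorm_le_bound _ (by norm_num)
    fun v => (norm_le_of_close (S.near x ξ h z hz) v).1

/-- every derivative of order at least one is bounded -/
theorem bd : ∃ M : ℕ → ℝ, (∀ k, 0 ≤ M k) ∧ ∀ k, 1 ≤ k → ∀ x ξ, P.Nr ρ x ξ →
    ∀ q ∈ ball (0 : E2) 1, ‖iteratedFDeriv ℝ k (P.Aq x ξ) q‖ ≤ M k := by
  have h1 : ∀ k : ℕ, ∃ M : ℝ, 0 ≤ M ∧ (1 ≤ k → ∀ x ξ, P.Nr ρ x ξ →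
      ∀ q ∈ ball (0 : E2) 1, ‖iteratedFDeriv ℝ k (P.Aq x ξ) q‖ ≤ M) := by
    intro k
    rcases Nat.lt_or_ge k 2 with hk | hk
    · refine ⟨2, by norm_num, fun hk1 x ξ h q hq => ?_⟩
      have : k = 1 := by omega
      subst this
      rw [norm_iteratedFDeriv_one]
      exact ContinuousLinearMap.opNorm_le_bound _ (by norm_num)
        fun v => (norm_le_of_close (S.near x ξ h q hq) v).1
    · obtain ⟨M, hM⟩ := S.bk k hk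
      exact ⟨max M 0, le_max_right _ _, fun _ x ξ h q hq =>
        (hM x ξ h q hq).trans (le_max_left _ _)⟩
  choose M hM0 hM using h1
  exact ⟨M, hM0, hM⟩

theorem pt_ne {x : X} {ξ : B} (h : P.Nr ρ x ξ) {q : E2} (hq : q ∈ ball (0 : E2) 1) :
    P.Af.pt x q ≠ ξ := by
  obtain ⟨f1, f2, -⟩ := S.hq x ξ h q hq
  rw [← f2]
  exact Th_ne x ξ (ball_subset_closedBall f1)

/-- (F1) -/
theorem f1 {x : X} {ξ : B} (h : P.Nr ρ x ξ) {q : E2} (hq : ‖q‖ ≤ 1 / 2) :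
    ‖P.hh x ξ q - fderiv ℝ (P.Aq x ξ) 0 q‖ ≤ 4 * C ^ 2 * (‖P.gr x ξ 0‖ + ‖q‖ ^ 2) := by
  have hq1 : q ∈ ball (0 : E2) 1 := by rw [mem_ball_zero_iff]; linarith
  have h0 : (0 : E2) ∈ ball (0 : E2) 1 := mem_ball_self one_pos
  obtain ⟨-, -, f3, f4, f5⟩ := S.hq x ξ h q hq1
  set q' := P.Hq x ξ q with hq'
  set t := ‖P.gr x ξ 0‖ with ht
  have ht0 : 0 ≤ t := norm_nonneg _
  have hC := S.C_ge
  have n1 : ‖q'‖ ≤ ‖q‖ + ‖q' - q‖ := by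
    calc ‖q'‖ = ‖q + (q' - q)‖ := by rw [add_sub_cancel]
      _ ≤ _ := norm_add_le _ _
  have hq'1 : q' ∈ ball (0 : E2) 1 := by rw [mem_ball_zero_iff]; linarith
  obtain ⟨-, t2⟩ := taylor2 (S.sm x ξ h) (S.b2 x ξ h) hq'1
  have t3 : ‖fderiv ℝ (P.Aq x ξ) 0 (q' - q)‖ ≤ 2 * ‖q' - q‖ :=
    (norm_le_of_close (S.near x ξ h 0 h0) _).1
  have e : P.hh x ξ q - fderiv ℝ (P.Aq x ξ) 0 q = (P.Aq x ξ q' - P.Aq x ξ 0 -
      fderiv ℝ (P.Aq x ξ) 0 q') + P.Aq x ξ 0 + fderiv ℝ (P.Aq x ξ) 0 (q' - q) := by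
    rw [f3, map_sub]; abel
  have n2 : ‖q'‖ ^ 2 ≤ 2 * ‖q‖ ^ 2 + 2 * ‖q' - q‖ ^ 2 := by
    nlinarith [sq_nonneg (‖q‖ - ‖q' - q‖), norm_nonneg q', norm_nonneg q, norm_nonneg (q' - q)]
  have n3 : ‖q' - q‖ ^ 2 ≤ 1 / 4 * (C * t) := by
    rw [sq]
    exact mul_le_mul f5 f4 (norm_nonneg _) (by norm_num)
  have n4 : 0 ≤ ‖q‖ ^ 2 := sq_nonneg _
  have n5 : C * ‖q'‖ ^ 2 ≤ C * (2 * ‖q‖ ^ 2 + 2 * (1 / 4 * (C * t))) :=
    mul_le_mul_of_nonneg_left (by linarith) S.C_pos.le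
  have n6 : C ≤ C ^ 2 := by nlinarith
  have n7 : C * t ≤ C ^ 2 * t := mul_le_mul_of_nonneg_right n6 ht0
  have n8 : C * ‖q‖ ^ 2 ≤ C ^ 2 * ‖q‖ ^ 2 := mul_le_mul_of_nonneg_right n6 n4
  have n9 : 0 ≤ C ^ 2 * t := by positivity
  have n10 : 0 ≤ C ^ 2 * ‖q‖ ^ 2 := by positivity
  rw [e]
  calc _ ≤ ‖P.Aq x ξ q' - P.Aq x ξ 0 - fderiv ℝ (P.Aq x ξ) 0 q'‖ + ‖P.Aq x ξ 0‖ +
        ‖fderiv ℝ (P.Aq x ξ) 0 (q' - q)‖ := norm_add₃_le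
    _ ≤ C * ‖q'‖ ^ 2 + C * t + 2 * (C * t) := by
        refine add_le_add (add_le_add t2 (S.z x ξ h)) (t3.trans ?_)
        linarith
    _ ≤ 4 * C ^ 2 * (t + ‖q‖ ^ 2) := by
        nlinarith

/-- the charts are nearly intertwined by the flow -/
theorem f2z {x : X} {ξ : B} (h : P.Nr ρ x ξ) (h' : P.Nr ρ (L.φ 1 x) ξ) {w : E2}
    (hw : ‖w‖ ≤ 1 / 2) (hw' : ‖P.Af.P 1 x w‖ ≤ 1 / 2) :
    ‖P.Af.P 1 (L.hol ξ x) (P.Aq x ξ w) - P.Aq (L.φ 1 x) ξ (P.Af.P 1 x w)‖ ≤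
      2 * C ^ 2 * (Real.exp P.Ra.b + 1) * ‖P.gr x ξ 0‖ := by
  have hw1 : w ∈ ball (0 : E2) 1 := by rw [mem_ball_zero_iff]; linarith
  have hw1' : P.Af.P 1 x w ∈ ball (0 : E2) 1 := by rw [mem_ball_zero_iff]; linarith
  obtain ⟨-, -, a3, a4, a5⟩ := S.hq x ξ h w hw1
  obtain ⟨-, -, b3, b4, b5⟩ := S.hq _ ξ h' _ hw1'
  set P' := P.Af.P 1 (L.hol ξ x) with hP'
  set u := P.Hq x ξ w with hu
  set u' := P.Hq (L.φ 1 x) ξ (P.Af.P 1 x w) with hu'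
  have hu1 : u ∈ ball (0 : E2) 1 := by
    rw [mem_ball_zero_iff]
    calc ‖u‖ = ‖(u - w) + w‖ := by rw [sub_add_cancel]
      _ ≤ ‖u - w‖ + ‖w‖ := norm_add_le _ _
      _ < 1 := by linarith
  have hu1' : u' ∈ ball (0 : E2) 1 := by
    rw [mem_ball_zero_iff]
    calc ‖u'‖ = ‖(u' - P.Af.P 1 x w) + P.Af.P 1 x w‖ := by rw [sub_add_cancel]
      _ ≤ ‖u' - P.Af.P 1 x w‖ + ‖P.Af.P 1 x w‖ := norm_add_le _ _
      _ < 1 := by linarith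
  have key : P' (P.Aq x ξ u) = P.Aq (L.φ 1 x) ξ u' := by
    rw [← a3, ← b3, hh_flow (ne_ep h.1) 1 (S.pt_ne h hw1)]
  have hang := (S.ang x ξ h.1 1 zero_le_one).2
  have hexp : Real.exp (-(P.Ra.a * 1)) ≤ 1 := by
    rw [Real.exp_le_one_iff]
    have := P.Ra.a_pos
    linarith
  set t := ‖P.gr x ξ 0‖ with ht
  have ht0 : 0 ≤ t := norm_nonneg _
  have hCp := S.C_pos
  have hC1 := S.C_ge
  have hang' : ‖P.gr (L.φ 1 x) ξ 0‖ ≤ C * t := by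
    refine hang.trans ?_
    exact mul_le_mul_of_nonneg_right (mul_le_of_le_one_right hCp.le hexp) ht0
  have e : P' (P.Aq x ξ w) - P.Aq (L.φ 1 x) ξ (P.Af.P 1 x w) =
      P' (P.Aq x ξ w - P.Aq x ξ u) + (P.Aq (L.φ 1 x) ξ u' - P.Aq (L.φ 1 x) ξ (P.Af.P 1 x w)) := by
    rw [map_sub, key]; abel
  have c1 : ‖P' (P.Aq x ξ w - P.Aq x ξ u)‖ ≤ Real.exp P.Ra.b * (2 * (C * t)) := by
    have h1 := (S.rate 1 zero_le_one (L.hol ξ x) (P.Aq x ξ w - P.Aq x ξ u)).2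
    rw [mul_one] at h1
    refine h1.trans (mul_le_mul_of_nonneg_left ?_ (Real.exp_pos _).le)
    refine (S.lip h hu1 hw1).trans ?_
    rw [norm_sub_rev]
    linarith
  have c2 : ‖P.Aq (L.φ 1 x) ξ u' - P.Aq (L.φ 1 x) ξ (P.Af.P 1 x w)‖ ≤ 2 * (C * (C * t)) := by
    refine (S.lip h' hw1' hu1').trans ?_
    have : C * ‖P.gr (L.φ 1 x) ξ 0‖ ≤ C * (C * t) := mul_le_mul_of_nonneg_left hang' hCp.le
    linarith
  rw [e]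
  refine (norm_add_le _ _).trans ((add_le_add c1 c2).trans ?_)
  have n7 : C * t ≤ C ^ 2 * t := mul_le_mul_of_nonneg_right (by nlinarith) ht0
  have n8 : Real.exp P.Ra.b * (C * t) ≤ Real.exp P.Ra.b * (C ^ 2 * t) :=
    mul_le_mul_of_nonneg_left n7 (Real.exp_pos _).le
  nlinarith

/-- (F2) -/
theorem f2 {κ : ℝ} (hκ0 : 0 < κ) (hκ : κ < 1) : ∃ K : ℝ, 0 ≤ K ∧ ∀ x ξ, P.Nr ρ x ξ →
    P.Nr ρ (L.φ 1 x) ξ → ∀ v, ‖P.Af.P 1 (L.hol ξ x) (fderiv ℝ (P.Aq x ξ) 0 v) -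
      fderiv ℝ (P.Aq (L.φ 1 x) ξ) 0 (P.Af.P 1 x v)‖ ≤ K * ‖P.gr x ξ 0‖ ^ κ * ‖v‖ := by
  obtain ⟨M, hM0, hM⟩ := S.bd
  set R : ℝ := 1 / (2 * Real.exp P.Ra.b) with hR
  have hexp : 1 ≤ Real.exp P.Ra.b := by
    rw [Real.one_le_exp_iff]
    exact P.Ra.a_pos.le.trans P.Ra.a_le_b
  have hRpos : 0 < R := by positivity
  have hR2 : Real.exp P.Ra.b * R = 1 / 2 := by
    rw [hR]; field_simp
  have hR1 : R ≤ 1 / 2 := by
    rw [← hR2]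
    exact le_mul_of_one_le_left hRpos.le hexp
  obtain ⟨K, hK0, hK⟩ := inter' (E := E2) hRpos hκ0 hκ M hM0 (c := Real.exp P.Ra.b)
    (l := Real.exp P.Ra.b) (Real.exp_pos _).le (Real.exp_pos _).le
  set K2 : ℝ := 2 * C ^ 2 * (Real.exp P.Ra.b + 1) with hK2
  have hK20 : 0 ≤ K2 := by positivity
  refine ⟨K * K2 ^ κ, by positivity, fun x ξ h h' v => ?_⟩
  have hPle : ∀ y w, ‖P.Af.P 1 y w‖ ≤ Real.exp P.Ra.b * ‖w‖ := by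
    intro y w
    have h1 := (S.rate 1 zero_le_one y w).2
    rwa [mul_one] at h1
  have hball : ∀ w ∈ ball (0 : E2) R, ‖w‖ ≤ 1 / 2 ∧ ‖P.Af.P 1 x w‖ ≤ 1 / 2 := by
    intro w hw
    rw [mem_ball_zero_iff] at hw
    refine ⟨(hw.le).trans hR1, (hPle x w).trans ?_⟩
    rw [← hR2]
    exact mul_le_mul_of_nonneg_left hw.le (Real.exp_pos _).le
  have h1 := hK (P.Aq x ξ) (P.Aq (L.φ 1 x) ξ) (P.Af.P 1 (L.hol ξ x) : E2 →L[ℝ] E2) (P.Af.P 1 x)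
    0 0 0 (K2 * ‖P.gr x ξ 0‖) (S.sm x ξ h) (S.sm _ ξ h') (fun k hk => hM k hk x ξ h)
    (fun k hk => hM k hk _ ξ h')
    (ContinuousLinearMap.opNorm_le_bound _ (Real.exp_pos _).le (hPle _)) (hPle x)
    (fun w hw => by
      rw [zero_add, mem_ball_zero_iff]; linarith [(hball w hw).1])
    (fun w hw => by
      rw [zero_add, mem_ball_zero_iff]; linarith [(hball w hw).2])
    (mul_nonneg hK20 (norm_nonneg _))
    (fun w hw => by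
      rw [zero_add, zero_add, sub_zero]
      exact S.f2z h h' (hball w hw).1 (hball w hw).2)
    0 (mem_ball_self hRpos)
  rw [map_zero, add_zero, Real.mul_rpow hK20 (norm_nonneg _), ← mul_assoc] at h1
  have h2 := ContinuousLinearMap.le_of_opNorm_le _ h1 v
  exact h2

end Bas

end Vale.Agent.P207.N4.V.H761
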