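import Vale.Agent.P207.N5.H761.T3B

/-!
# P207, line N5, row T3-GLUE, part C: the instance of `T3In` over `Pic`
-/

set_option maxSynthPendingDepth 3
set_option linter.unusedSectionVars false

open Set Filter Topology Metric MeasureTheory
open scoped ContDiff

noncomputable section

namespace Vale.Agent.P207.N4.V.H761

open Vale.Agent.P207.N3
open Vale.Agent.P207.H761 (inter' invertible_of_close norm_le_of_close taylor2 T3In)

variable [Dim]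

variable {Γ X B : Type} [Group Γ] [MetricSpace X] [ProperSpace X] [MulAction Γ X]
  [IsIsometricSMul Γ X] [TopologicalSpace B] [CompactSpace B] [T2Space B] [MulAction Γ B]
  [ContinuousConstSMul Γ B] {L : Leaf Γ X B} [MeasurableSpace B] [BorelSpace B] {V : Type}
  [NormedAddCommGroup V] [NormedSpace ℝ V] [FiniteDimensional ℝ V]

/-- the data of the instance -/
structure Gd (P : Pic L V) (ρ C ρ' κ K : ℝ) : Prop extends Bas P ρ C where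
  κ_pos : 0 < κ
  κ_lt : κ < 1
  pin : 2 * P.Ra.b < 2 * P.Ra.a + κ * P.Ra.a
  base : ∀ x ξ, P.Nr ρ' x ξ → ∀ q ∈ ball (0 : E2) 1, ∀ n : ℕ,
    P.Nr ρ (L.φ n (tr L x (P.Af.pt x q))) ξ
  self : ∀ x ξ, P.Nr ρ' x ξ → ∀ n : ℕ, P.Nr ρ (L.φ n x) ξ
  far : ∀ x ξ, ξ ≠ L.ep x → ∃ n : ℕ, P.Nr ρ' (L.φ n x) ξ
  M_cont : ∀ ξ v, ContinuousOn (fun x => fderiv ℝ (P.Aq x ξ) 0 v) {x | P.Nr ρ x ξ}
  K_nonneg : 0 ≤ K
  F2 : ∀ x ξ, P.Nr ρ x ξ → P.Nr ρ (L.φ 1 x) ξ → ∀ v,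
    ‖P.Af.P 1 (L.hol ξ x) (fderiv ℝ (P.Aq x ξ) 0 v) -
      fderiv ℝ (P.Aq (L.φ 1 x) ξ) 0 (P.Af.P 1 x v)‖ ≤ K * ‖P.gr x ξ 0‖ ^ κ * ‖v‖

open Classical in
/-- the derivative of the chart at the centre -/
def Mx (P : Pic L V) (x : X) (ξ : B) : E2 ≃L[ℝ] E2 :=
  if h : (fderiv ℝ (P.Aq x ξ) 0).IsInvertible then h.choose else ContinuousLinearEquiv.refl ℝ E2

variable {P : Pic L V} {ρ C ρ' κ K : ℝ}

theorem Mx_coe {x : X} {ξ : B} (h : (fderiv ℝ (P.Aq x ξ) 0).IsInvertible) :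
    (Mx P x ξ : E2 →L[ℝ] E2) = fderiv ℝ (P.Aq x ξ) 0 := by
  rw [Mx, dif_pos h]
  exact h.choose_spec

theorem Bas.Mx_apply (S : Bas P ρ C) {x : X} {ξ : B} (h : P.Nr ρ x ξ) (v : E2) :
    Mx P x ξ v = fderiv ℝ (P.Aq x ξ) 0 v := by
  have h1 := Mx_coe (invertible_of_close (S.near x ξ h 0 (mem_ball_self one_pos)))
  rw [← h1]
  rfl

theorem Bas.Mx_le (S : Bas P ρ C) {x : X} {ξ : B} (h : P.Nr ρ x ξ) (v : E2) :
    ‖Mx P x ξ v‖ ≤ 2 * ‖v‖ := by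
  rw [S.Mx_apply h]
  exact (norm_le_of_close (S.near x ξ h 0 (mem_ball_self one_pos)) v).1

theorem Bas.Mx_inv (S : Bas P ρ C) {x : X} {ξ : B} (h : P.Nr ρ x ξ) (v : E2) :
    ‖(Mx P x ξ).symm v‖ ≤ 2 * ‖v‖ := by
  have h1 := (norm_le_of_close (S.near x ξ h 0 (mem_ball_self one_pos))
    ((Mx P x ξ).symm v)).2
  rw [← S.Mx_apply h, ContinuousLinearEquiv.apply_symm_apply] at h1
  exact h1

namespace Gd

variable (S : Gd P ρ C ρ' κ K)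
include S

theorem CC_ge : 16 ≤ 16 * C ^ 2 + 2 * K ∧ C ≤ 16 * C ^ 2 + 2 * K := by
  have h1 := S.C_ge
  have h2 := S.K_nonneg
  constructor <;> nlinarith

theorem hMc (ξ : B) (v : E2) : ContinuousOn (fun x => Mx P x ξ v) {x | P.Nr ρ x ξ} :=
  (S.M_cont ξ v).congr fun _ hx => S.toBas.Mx_apply hx v

theorem hMic (ξ : B) (v : E2) : ContinuousOn (fun x => (Mx P x ξ).symm v) {x | P.Nr ρ x ξ} := by
  intro x₀ hx₀
  have h1 := S.hMc ξ ((Mx P x₀ ξ).symm v) x₀ hx₀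
  have h2 : Tendsto (fun x => 2 * ‖Mx P x₀ ξ ((Mx P x₀ ξ).symm v) -
      Mx P x ξ ((Mx P x₀ ξ).symm v)‖) (𝓝[{x | P.Nr ρ x ξ}] x₀) (𝓝 (2 * ‖Mx P x₀ ξ
      ((Mx P x₀ ξ).symm v) - Mx P x₀ ξ ((Mx P x₀ ξ).symm v)‖)) :=
    ((tendsto_const_nhds.sub h1).norm).const_mul 2
  rw [sub_self, norm_zero, mul_zero] at h2
  rw [ContinuousWithinAt, tendsto_iff_norm_sub_tendsto_zero]
  refine squeeze_zero' (Eventually.of_forall fun _ => norm_nonneg _) ?_ h2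
  filter_upwards [self_mem_nhdsWithin] with x hx
  have e : (Mx P x ξ).symm v - (Mx P x₀ ξ).symm v = (Mx P x ξ).symm
      (Mx P x₀ ξ ((Mx P x₀ ξ).symm v) - Mx P x ξ ((Mx P x₀ ξ).symm v)) := by
    rw [map_sub, ContinuousLinearEquiv.apply_symm_apply, ContinuousLinearEquiv.symm_apply_apply]
  rw [e]
  exact S.toBas.Mx_inv hx _

theorem hF1 {x : X} {ξ : B} (h : P.Nr ρ x ξ) {w : E2} (hw : ‖w‖ ≤ 1) :
    ‖(Mx P x ξ).symm ((2 : ℝ) • P.Af.ch (L.hol ξ x) (P.Af.pt x ((1 / 2 : ℝ) • w))) - w‖ ≤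
      (16 * C ^ 2 + 2 * K) * (‖P.gr x ξ 0‖ ^ κ + ‖w‖ ^ 2) := by
  have hn : ‖(1 / 2 : ℝ) • w‖ = 1 / 2 * ‖w‖ := by
    rw [norm_smul]; norm_num
  have h1 := S.toBas.f1 h (q := (1 / 2 : ℝ) • w) (by rw [hn]; linarith)
  rw [← S.toBas.Mx_apply h, hn] at h1
  have e : (Mx P x ξ).symm ((2 : ℝ) • P.Af.ch (L.hol ξ x) (P.Af.pt x ((1 / 2 : ℝ) • w))) - w =
      (Mx P x ξ).symm ((2 : ℝ) • (P.hh x ξ ((1 / 2 : ℝ) • w) - Mx P x ξ ((1 / 2 : ℝ) • w))) := by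
    rw [smul_sub, map_sub]
    congr 1
    rw [map_smul, ContinuousLinearEquiv.symm_apply_apply, smul_smul]
    norm_num
  have ht : ‖P.gr x ξ 0‖ ≤ ‖P.gr x ξ 0‖ ^ κ := by
    have h2 := Real.rpow_le_rpow_of_exponent_ge' (norm_nonneg _) (h.2.trans S.ρ_le) S.κ_pos.le
      S.κ_lt.le
    rwa [Real.rpow_one] at h2
  have hK := S.K_nonneg
  have hC : 0 ≤ C ^ 2 := sq_nonneg _
  have ht0 : 0 ≤ ‖P.gr x ξ 0‖ ^ κ := Real.rpow_nonneg (norm_nonneg _) _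
  have hw2 : 0 ≤ ‖w‖ ^ 2 := sq_nonneg _
  rw [e]
  refine (S.toBas.Mx_inv h _).trans ?_
  rw [norm_smul, Real.norm_ofNat]
  calc _ ≤ 2 * (2 * (4 * C ^ 2 * (‖P.gr x ξ 0‖ + (1 / 2 * ‖w‖) ^ 2))) := by linarith
    _ = 16 * C ^ 2 * (‖P.gr x ξ 0‖ + 1 / 4 * ‖w‖ ^ 2) := by ring
    _ ≤ 16 * C ^ 2 * (‖P.gr x ξ 0‖ ^ κ + ‖w‖ ^ 2) := by
        refine mul_le_mul_of_nonneg_left ?_ (by positivity)
        linarith
    _ ≤ _ := mul_le_mul_of_nonneg_right (by linarith) (by positivity)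

theorem hF2 {x : X} {ξ : B} (h : P.Nr ρ x ξ) (h' : P.Nr ρ (L.φ 1 x) ξ) (v : E2) :
    ‖(Mx P (L.φ 1 x) ξ).symm (P.Af.P 1 (L.hol ξ x) (Mx P x ξ v)) - P.Af.P 1 x v‖ ≤
      (16 * C ^ 2 + 2 * K) * ‖P.gr x ξ 0‖ ^ κ * ‖v‖ := by
  have h1 := S.F2 x ξ h h' v
  rw [← S.toBas.Mx_apply h, ← S.toBas.Mx_apply h'] at h1
  have e : (Mx P (L.φ 1 x) ξ).symm (P.Af.P 1 (L.hol ξ x) (Mx P x ξ v)) - P.Af.P 1 x v =
      (Mx P (L.φ 1 x) ξ).symm (P.Af.P 1 (L.hol ξ x) (Mx P x ξ v) -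
        Mx P (L.φ 1 x) ξ (P.Af.P 1 x v)) := by
    rw [map_sub, ContinuousLinearEquiv.symm_apply_apply]
  have hC : 0 ≤ C ^ 2 := sq_nonneg _
  have ht0 : 0 ≤ ‖P.gr x ξ 0‖ ^ κ := Real.rpow_nonneg (norm_nonneg _) _
  rw [e]
  refine (S.toBas.Mx_inv h' _).trans ?_
  calc _ ≤ 2 * (K * ‖P.gr x ξ 0‖ ^ κ * ‖v‖) := by linarith
    _ = 2 * K * (‖P.gr x ξ 0‖ ^ κ * ‖v‖) := by ring
    _ ≤ (16 * C ^ 2 + 2 * K) * (‖P.gr x ξ 0‖ ^ κ * ‖v‖) :=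
        mul_le_mul_of_nonneg_right (by linarith) (by positivity)
    _ = _ := by ring

theorem ht_iter {x : X} {ξ : B} (h : P.Nr ρ x ξ) (n : ℕ) :
    ‖P.gr (L.φ n x) ξ 0‖ ^ κ ≤
      (16 * C ^ 2 + 2 * K) * Real.exp (-(κ * P.Ra.a) * n) * ‖P.gr x ξ 0‖ ^ κ := by
  have h1 := (S.ang x ξ h.1 n (Nat.cast_nonneg n)).2
  have hC := S.toBas.C_pos
  have h2 := Real.rpow_le_rpow (norm_nonneg _) h1 S.κ_pos.le
  rw [Real.mul_rpow (by positivity) (norm_nonneg _), Real.mul_rpow hC.le (Real.exp_pos _).le,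
    ← Real.exp_mul] at h2
  refine h2.trans ?_
  have h3 : C ^ κ ≤ 16 * C ^ 2 + 2 * K := by
    have h4 := Real.rpow_le_rpow_of_exponent_le S.C_ge S.κ_lt.le
    rw [Real.rpow_one] at h4
    exact h4.trans S.CC_ge.2
  have e : -(P.Ra.a * n) * κ = -(κ * P.Ra.a) * n := by ring
  rw [e]
  have ht0 : 0 ≤ ‖P.gr x ξ 0‖ ^ κ := Real.rpow_nonneg (norm_nonneg _) _
  exact mul_le_mul_of_nonneg_right (mul_le_mul_of_nonneg_right h3 (Real.exp_pos _).le) ht0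

end Gd

theorem a_aff' (F : Aff L) (x y : X) (h : L.em x = L.em y) :
    ∃ (R : E2 ≃L[ℝ] E2) (b : E2), ∀ η, η ≠ L.em x →
      (2 : ℝ) • F.ch y η = R ((2 : ℝ) • F.ch x η) + b := by
  refine ⟨F.lin x y, -((2 : ℝ) • F.lin x y (F.ch x (L.ep y))), fun η hη => ?_⟩
  rw [ch_leaf F h hη, map_sub, map_smul, smul_sub]
  abel

/-- the instance -/
def Gd.toIn (S : Gd P ρ C ρ' κ K) : T3In X B E2 where
  φ := L.φ
  φ_zero := L.φ_zero
  φ_add := L.φ_add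
  φ_cont t := L.φ_cont.comp (continuous_const.prodMk continuous_id)
  flip := L.flip
  flip_cont := L.flip_cont
  flip_flip := L.flip_flip
  em := L.em
  em_cont := L.em_cont
  em_φ := L.em_φ
  ep := L.ep
  ep_flip := L.ep_flip
  ep_φ := ep_φ L
  em_ne_ep := L.em_ne_ep
  hol := L.hol
  hol_em := L.hol_em
  hol_ep := L.hol_ep
  hol_φ := L.hol_φ
  hol_cont := L.hol_cont
  a x η := (2 : ℝ) • P.Af.ch x η
  ai x z := P.Af.pt x ((1 / 2 : ℝ) • z)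
  ai_ne x z := P.Af.pt_ne x _
  a_ai x z := by
    rw [P.Af.ch_pt, smul_smul]
    norm_num
  ai_a x η h := by
    rw [smul_smul]
    norm_num
    exact P.Af.pt_ch x η h
  a_cont := (continuousOn_const (c := (2 : ℝ))).smul P.Af.ch_cont
  ai_cont := P.Af.pt_cont.comp (continuous_fst.prodMk (continuous_snd.const_smul (1 / 2 : ℝ)))
  a_ep x := by rw [← P.Af.pt_zero, P.Af.ch_pt, smul_zero]
  a_aff := a_aff' P.Af
  D := P.Af.P
  a_φ t x η h := by rw [ch_flow P.Af t x h, map_smul]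
  la := P.Ra.a
  lb := P.Ra.b
  la_pos := P.Ra.a_pos
  lb_pos := P.Ra.a_pos.trans_le P.Ra.a_le_b
  lc := κ * P.Ra.a
  lc_pos := mul_pos S.κ_pos P.Ra.a_pos
  pinch := S.pin
  C := 16 * C ^ 2 + 2 * K
  C_ge := by linarith [S.CC_ge.1]
  D_le t x v ht := by
    refine ((S.rate t ht x v).2).trans ?_
    have h1 : 1 ≤ 16 * C ^ 2 + 2 * K := by linarith [S.CC_ge.1]
    exact mul_le_mul_of_nonneg_right (le_mul_of_one_le_left (Real.exp_pos _).le h1)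
      (norm_nonneg _)
  D_inv t x v ht := by
    refine (norm_symm_le S.rate ht x v).trans ?_
    have h1 : 1 ≤ 16 * C ^ 2 + 2 * K := by linarith [S.CC_ge.1]
    rw [neg_mul]
    exact mul_le_mul_of_nonneg_right (le_mul_of_one_le_left (Real.exp_pos _).le h1)
      (norm_nonneg _)
  T := 1
  T_pos := one_pos
  Cl := {p | P.Nr ρ p.1 p.2}
  t x ξ := ‖P.gr x ξ 0‖ ^ κ
  t_nonneg x ξ := Real.rpow_nonneg (norm_nonneg _) _
  t_bd x ξ h := by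
    have h1 : P.Nr ρ x ξ := h
    have h2 := Real.rpow_le_one (norm_nonneg (P.gr x ξ 0)) (h1.2.trans S.ρ_le) S.κ_pos.le
    linarith [S.CC_ge.1]
  Cl_ne x ξ h := by
    have h1 : P.Nr ρ x ξ := h
    exact ne_ep h1.1
  Cl_far x ξ h w hw := by
    have h1 : P.Nr ρ x ξ := h
    refine S.toBas.pt_ne h1 ?_
    rw [mem_ball_zero_iff, norm_smul, Real.norm_eq_abs, abs_of_pos (by norm_num)]
    linarith
  G := {p | P.Nr ρ' p.1 p.2}
  ρ := 2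
  ρ_pos := two_pos
  G_cl x ξ h u hu n := by
    have h1 : P.Nr ρ' x ξ := h
    have h2 : (1 / 2 : ℝ) • u ∈ ball (0 : E2) 1 := by
      rw [mem_ball_zero_iff, norm_smul, Real.norm_eq_abs, abs_of_pos (by norm_num)]
      linarith
    have h3 := S.base x ξ h1 _ h2 n
    rw [mul_one]
    exact h3
  t_iter x ξ h n := by
    have h1 : P.Nr ρ x ξ := by
      have := h 0
      rw [Nat.cast_zero, zero_mul, L.φ_zero] at this
      exact this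
    rw [mul_one]
    exact S.ht_iter h1 n
  far x ξ h := by
    obtain ⟨n, hn⟩ := S.far x ξ h
    refine ⟨n, ?_⟩
    rw [mul_one]
    exact hn
  G_self x ξ h n := by
    rw [mul_one]
    exact S.self x ξ h n
  M := Mx P
  M_le x ξ h v := by
    have h1 : P.Nr ρ x ξ := h
    exact (S.toBas.Mx_le h1 v).trans
      (mul_le_mul_of_nonneg_right (by linarith [S.CC_ge.1]) (norm_nonneg _))
  M_inv x ξ h v := by
    have h1 : P.Nr ρ x ξ := h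
    exact (S.toBas.Mx_inv h1 v).trans
      (mul_le_mul_of_nonneg_right (by linarith [S.CC_ge.1]) (norm_nonneg _))
  M_cont := S.hMc
  Mi_cont := S.hMic
  F1 x ξ h w hw := S.hF1 h hw
  F2 x ξ h h' v := S.hF2 h h' v

end Vale.Agent.P207.N4.V.H761
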